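import Vale.Agent.P162.H768.Final
import Vale.Agent.P162.S2.Cube

/-!
# P162, stage 2: `PartB` for the cube
-/

open Finset Equiv

namespace Vale.Agent.P162.H768

open Vale.Agent.P162.S2

theorem qlaw_eq {d : ℕ} [NeZero d] {α : Type*} [Fintype α] [DecidableEq α] (m : ℕ) :
    (cube d).qlaw d (fun (f : α ↪ V d) (w : Fin d → V d → Bool) => gi 0 m f w) =
      (q d 0 m : Perm α → ℝ) := by
  funext g
  simp only [Net.qlaw, Net.geo2, cube_hid]
  rfl

theorem partB : PartB (1 / 20) := by
  intro ε hε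
  obtain ⟨n₀, hn₀⟩ := exists_pow_lt_of_lt_one hε (show (1 / 2 : ℝ) < 1 by norm_num)
  refine ⟨max 40 (4 * n₀), ?_⟩
  intro d _ hd
  have h40 : 40 ≤ d := (le_max_left _ _).trans hd
  have hd2 : 4 * n₀ ≤ d := (le_max_right _ _).trans hd
  have hcard : Fintype.card (Fin (7 * 2 ^ (d - 3))) = 7 * 2 ^ (d - 3) := Fintype.card_fin _
  refine ⟨fun f w => gi 0 (d / 8) f w, gi_nonneg _ _, gi_le_one _ _,
    fun τ f r => gi_rel _ _ τ f r, ?_, ?_⟩
  · rw [qlaw_eq]
    exact data 0 h40 hcard
  · have h := bad_le (α := Fin (7 * 2 ^ (d - 3))) 0 h40 hcard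
    have hV : Nonempty (Fin (7 * 2 ^ (d - 3)) ↪ V d) := by
      apply Function.Embedding.nonempty_of_card_le
      have h3 : 2 ^ d = 8 * 2 ^ (d - 3) := by
        rw [show (8 : ℕ) = 2 ^ 3 by norm_num, ← pow_add]
        congr 1
        omega
      simp only [Fintype.card_fin, Fintype.card_pi, Fintype.card_bool, prod_const, card_univ]
      omega
    simp only [avg_sub, avg_const] at h
    refine h.trans (le_trans ?_ hn₀.le)
    rw [← Real.rpow_natCast]
    apply Real.rpow_le_rpow_of_exponent_ge (by norm_num) (by norm_num)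
    have : (4 : ℝ) * n₀ ≤ d := by exact_mod_cast hd2
    linarith

end Vale.Agent.P162.H768
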