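import Vale.Agent.P162.S2.Defs

/-!
# P162, stage 2, part B: counting lemmas
-/

open Finset Equiv

namespace Vale.Agent.P162.H768

open Vale.Agent.P162.S2

section coins
variable {ι κ : Type*} [Fintype ι] [Fintype κ] [DecidableEq ι] [DecidableEq κ]

theorem card_agree_off (D : Finset (ι × κ)) (w : ι → κ → Bool) :
    (univ.filter fun v : ι → κ → Bool => ∀ p, p ∉ D → v p.1 p.2 = w p.1 p.2).card =
      2 ^ D.card := by
  have h1 : (univ.filter fun v : ι → κ → Bool => ∀ p, p ∉ D → v p.1 p.2 = w p.1 p.2) =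
      Fintype.piFinset fun s => Fintype.piFinset fun y =>
        if (s, y) ∈ D then (univ : Finset Bool) else {w s y} := by
    ext v
    simp only [mem_filter, mem_univ, true_and, Fintype.mem_piFinset]
    constructor
    · intro h s y
      by_cases hD : (s, y) ∈ D
      · simp [hD]
      · simp [hD, h (s, y) hD]
    · rintro h ⟨s, y⟩ hD
      have := h s y
      simpa [hD] using this
  rw [h1, Fintype.card_piFinset]
  simp only [Fintype.card_piFinset]
  rw [← Finset.prod_product', univ_product_univ]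
  have h2 : ∀ p ∈ (univ : Finset (ι × κ)),
      (if (p.1, p.2) ∈ D then (univ : Finset Bool) else {w p.1 p.2}).card =
        if p ∈ D then 2 else 1 := by
    intro p _
    by_cases hD : p ∈ D
    · have : (p.1, p.2) ∈ D := hD
      simp [hD]
    · have : (p.1, p.2) ∉ D := hD
      simp [hD]
  rw [Finset.prod_congr rfl h2, Finset.prod_ite, prod_const, prod_const_one, mul_one]
  congr 2
  ext p
  simp

theorem card_agree_on_mul (D : Finset (ι × κ)) (w : ι → κ → Bool) :
    (univ.filter fun v : ι → κ → Bool => ∀ p ∈ D, v p.1 p.2 = w p.1 p.2).card * 2 ^ D.card =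
      Fintype.card (ι → κ → Bool) := by
  have h1 := card_agree_off (Dᶜ) w
  have h2 : (univ.filter fun v : ι → κ → Bool => ∀ p, p ∉ Dᶜ → v p.1 p.2 = w p.1 p.2) =
      (univ.filter fun v : ι → κ → Bool => ∀ p ∈ D, v p.1 p.2 = w p.1 p.2) := by
    ext v
    simp
  rw [← h2, h1, ← pow_add, card_compl_add_card]
  rw [Fintype.card_fun, Fintype.card_fun, Fintype.card_prod, Fintype.card_bool, ← pow_mul,
    mul_comm]

theorem avg_agree_on (D : Finset (ι × κ)) (w : ι → κ → Bool) :
    (avg fun v : ι → κ → Bool => if ∀ p ∈ D, v p.1 p.2 = w p.1 p.2 then (1 : ℝ) else 0) =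
      (1 / 2) ^ D.card := by
  have h := card_agree_on_mul D w
  have h2 : (0 : ℝ) < Fintype.card (ι → κ → Bool) := by
    exact_mod_cast Fintype.card_pos
  rw [avg, sum_boole, ← h]
  rw [← h] at h2
  push_cast at h2 ⊢
  have h3 : (0 : ℝ) < 2 ^ D.card := by positivity
  have h4 : (0 : ℝ) < ((univ.filter fun v : ι → κ → Bool =>
    ∀ p ∈ D, v p.1 p.2 = w p.1 p.2).card : ℝ) := by
    exact pos_of_mul_pos_left h2 h3.le
  rw [one_div, inv_pow]
  field_simp

end coins

section emb

theorem descFactorial_step (x k : ℕ) :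
    (x + 1) * x.descFactorial k = (x + 1 - k) * (x + 1).descFactorial k :=
  (Nat.succ_descFactorial x k).symm

/-- `(x - j)_k ≤ ((x + 1 - k - 0) / x)^j (x)_k`. -/
theorem descFactorial_sub_le (k : ℕ) : ∀ (j x : ℕ), j ≤ x →
    (x : ℝ) ^ j * ((x - j).descFactorial k : ℝ) ≤ ((x - k : ℕ) : ℝ) ^ j * (x.descFactorial k : ℝ)
  | 0, x, _ => by simp
  | j + 1, x, h => by
    have ih := descFactorial_sub_le k j x (by omega)
    obtain ⟨y, hy⟩ : ∃ y, x - j = y + 1 := ⟨x - j - 1, by omega⟩
    have h1 : x - (j + 1) = y := by omega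
    rw [h1]
    rw [hy] at ih
    have h2 : ((y : ℝ) + 1) * (y.descFactorial k : ℝ) =
        ((y + 1 - k : ℕ) : ℝ) * ((y + 1).descFactorial k : ℝ) := by
      exact_mod_cast descFactorial_step y k
    have hx : (0 : ℝ) < x := by
      have : 0 < x := by omega
      exact_mod_cast this
    have hy1 : (0 : ℝ) < (y : ℝ) + 1 := by positivity
    -- y.descFactorial k = (y+1-k)/(y+1) * (y+1).descFactorial k
    have h3 : (y.descFactorial k : ℝ) =
        ((y + 1 - k : ℕ) : ℝ) * ((y + 1).descFactorial k : ℝ) / ((y : ℝ) + 1) := by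
      field_simp
      linarith
    have h4 : (x : ℝ) * ((y + 1 - k : ℕ) : ℝ) ≤ ((x - k : ℕ) : ℝ) * ((y : ℝ) + 1) := by
      have h5 : x * (y + 1 - k) ≤ (x - k) * (y + 1) := by
        rcases le_total (y + 1) k with h6 | h6
        · rw [Nat.sub_eq_zero_of_le h6]; simp
        · have h7 : y + 1 ≤ x := by omega
          zify [h6, h6.trans h7]
          nlinarith [h7, h6]
      exact_mod_cast h5
    rw [h3, pow_succ, pow_succ]
    have h8 : (0 : ℝ) ≤ ((y + 1).descFactorial k : ℝ) := by positivity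
    calc (x : ℝ) ^ j * x * (((y + 1 - k : ℕ) : ℝ) * ((y + 1).descFactorial k : ℝ) / ((y : ℝ) + 1))
        = ((x : ℝ) ^ j * ((y + 1).descFactorial k : ℝ)) * (x * ((y + 1 - k : ℕ) : ℝ)) /
            ((y : ℝ) + 1) := by ring
      _ ≤ (((x - k : ℕ) : ℝ) ^ j * (x.descFactorial k : ℝ)) *
            (((x - k : ℕ) : ℝ) * ((y : ℝ) + 1)) / ((y : ℝ) + 1) := by
          gcongr
      _ = ((x - k : ℕ) : ℝ) ^ j * ((x - k : ℕ) : ℝ) * (x.descFactorial k : ℝ) := by
          field_simp

variable {α β : Type*} [Fintype α] [Fintype β] [DecidableEq α] [DecidableEq β]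

/-- Embeddings with one prescribed value that avoid a set. -/
theorem card_emb_le (c : α) (x : β) (Q : Finset β) (hQ : x ∉ Q) :
    (univ.filter fun f : α ↪ β => f c = x ∧ ∀ y ∈ Q, y ∉ Set.range f).card ≤
      (Fintype.card β - 1 - Q.card).descFactorial (Fintype.card α - 1) := by
  have h1 : Fintype.card {b : α // b ≠ c} = Fintype.card α - 1 := by
    rw [Fintype.card_subtype_compl (fun b => b = c), Fintype.card_subtype_eq]
  have h2 : Fintype.card {y : β // y ∉ insert x Q} = Fintype.card β - 1 - Q.card := by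
    rw [Fintype.card_subtype_compl (fun y => y ∈ insert x Q), Fintype.card_coe,
      card_insert_of_notMem hQ]
    omega
  rw [← h1, ← h2, ← Fintype.card_embedding_eq, ← Fintype.card_coe]
  have key : ∀ f : {f // f ∈ univ.filter fun f : α ↪ β => f c = x ∧ ∀ y ∈ Q, y ∉ Set.range f},
      ∀ b : {b : α // b ≠ c}, f.1 b.1 ∉ insert x Q := by
    intro f b h
    have hf := (mem_filter.1 f.2).2
    rcases mem_insert.1 h with h3 | h3
    · exact b.2 (f.1.injective (h3.trans hf.1.symm))
    · exact hf.2 _ h3 ⟨b.1, rfl⟩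
  refine Fintype.card_le_of_injective
    (fun f => ⟨fun b => ⟨f.1 b.1, key f b⟩, fun b b' h => ?_⟩) ?_
  · have := congrArg Subtype.val h
    exact Subtype.ext (f.1.injective this)
  · intro f f' h
    apply Subtype.ext
    ext b
    by_cases hb : b = c
    · subst hb
      rw [(mem_filter.1 f.2).2.1, (mem_filter.1 f'.2).2.1]
    · have h3 := congrFun (congrArg DFunLike.coe h) ⟨b, hb⟩
      exact congrArg Subtype.val h3

/-- The proportion of embeddings `f` such that `range f` avoids the `j` points of `Q (f c)`. -/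
theorem avg_avoid_le (c : α) (Q : β → Finset β) (j : ℕ) (hQ : ∀ x, x ∉ Q x)
    (hc : ∀ x, (Q x).card = j) (hαβ : Fintype.card α ≤ Fintype.card β)
    (hβ : 2 ≤ Fintype.card β) :
    (avg fun f : α ↪ β => if ∀ y ∈ Q (f c), y ∉ Set.range f then (1 : ℝ) else 0) ≤
      (((Fintype.card β - Fintype.card α : ℕ) : ℝ) / (Fintype.card β - 1 : ℕ)) ^ j := by
  classical
  set n := Fintype.card β with hn
  set N := Fintype.card α with hN
  have hN1 : 1 ≤ N := Fintype.card_pos_iff.2 ⟨c⟩
  have hj : j ≤ n - 1 := by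
    have x : β := (Fintype.card_pos_iff.1 (by omega : 0 < Fintype.card β)).some
    have h1 := card_insert_of_notMem (hQ x)
    have h2 := card_le_univ (insert x (Q x))
    rw [h1, hc x] at h2
    omega
  have hcard : Fintype.card (α ↪ β) = n * (n - 1).descFactorial (N - 1) := by
    rw [Fintype.card_embedding_eq]
    obtain ⟨m, hm⟩ : ∃ m, n = m + 1 := ⟨n - 1, by omega⟩
    obtain ⟨k, hk⟩ : ∃ k, N = k + 1 := ⟨N - 1, by omega⟩
    rw [← hn, ← hN, hm, hk, Nat.succ_descFactorial_succ]
    simp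
  have hpos : 0 < (n - 1).descFactorial (N - 1) := by
    apply Nat.pos_of_ne_zero
    intro h0
    rw [Nat.descFactorial_eq_zero_iff_lt] at h0
    omega
  have hsum : (univ.filter fun f : α ↪ β => ∀ y ∈ Q (f c), y ∉ Set.range f).card ≤
      n * (n - 1 - j).descFactorial (N - 1) := by
    have h1 : (univ.filter fun f : α ↪ β => ∀ y ∈ Q (f c), y ∉ Set.range f).card =
        ∑ x : β, (univ.filter fun f : α ↪ β => f c = x ∧ ∀ y ∈ Q x, y ∉ Set.range f).card := by
      rw [Finset.card_eq_sum_card_fiberwise (f := fun f : α ↪ β => f c) (t := univ)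
        (fun _ _ => mem_univ _)]
      refine sum_congr rfl fun x _ => ?_
      congr 1
      ext f
      simp only [mem_filter, mem_univ, true_and]
      constructor
      · rintro ⟨h2, rfl⟩
        exact ⟨rfl, h2⟩
      · rintro ⟨rfl, h2⟩
        exact ⟨h2, rfl⟩
    rw [h1]
    refine (sum_le_sum fun x _ => ?_).trans (by
      rw [sum_const, card_univ, smul_eq_mul])
    have := card_emb_le c x (Q x) (hQ x)
    rw [hc x] at this
    exact this
  have hn1 : (0 : ℝ) < ((n - 1 : ℕ) : ℝ) := by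
    have : 0 < n - 1 := by omega
    exact_mod_cast this
  have hnr : (0 : ℝ) < (n : ℝ) := by
    have : 0 < n := by omega
    exact_mod_cast this
  have h5 := descFactorial_sub_le (N - 1) j (n - 1) hj
  have h6 : n - 1 - (N - 1) = n - N := by omega
  rw [h6] at h5
  rw [avg, sum_boole, hcard, div_pow, div_le_div_iff₀ (by positivity) (by positivity)]
  push_cast
  have h7 : ((univ.filter fun f : α ↪ β => ∀ y ∈ Q (f c), y ∉ Set.range f).card : ℝ) ≤
      n * ((n - 1 - j).descFactorial (N - 1) : ℝ) := by exact_mod_cast hsum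
  calc ((univ.filter fun f : α ↪ β => ∀ y ∈ Q (f c), y ∉ Set.range f).card : ℝ) *
        ((n - 1 : ℕ) : ℝ) ^ j
      ≤ (n * ((n - 1 - j).descFactorial (N - 1) : ℝ)) * ((n - 1 : ℕ) : ℝ) ^ j := by gcongr
    _ = n * (((n - 1 : ℕ) : ℝ) ^ j * ((n - 1 - j).descFactorial (N - 1) : ℝ)) := by ring
    _ ≤ n * (((n - N : ℕ) : ℝ) ^ j * ((n - 1).descFactorial (N - 1) : ℝ)) := by gcongr
    _ = ((n - N : ℕ) : ℝ) ^ j * (n * ((n - 1).descFactorial (N - 1) : ℝ)) := by ring

end emb

end Vale.Agent.P162.H768
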