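import Vale.Agent.P162.H768.Match

/-!
# P162, stage 2, part B: the function `q` of the Thorp side and its properties
-/

open Finset Equiv
open scoped InnerProductSpace

namespace Vale.Agent.P162.H768

open Vale.Agent.P162.S2 Vale.Agent.P162.S2.Abs

variable {d : ℕ} [NeZero d]

section
variable {α : Type*}

omit [NeZero d] in
theorem perm_apply_inv (x : Perm α) (a : α) : x (x⁻¹ a) = a := by
  rw [← Perm.mul_apply, mul_inv_cancel, Perm.one_apply]

/-! ### Relabelling -/

/-- Relabel the lines. -/
def rel (x : Perm α) (f : α ↪ V d) : α ↪ V d := x.toEmbedding.trans f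

omit [NeZero d] in
@[simp] theorem rel_apply (x : Perm α) (f : α ↪ V d) (a : α) : rel x f a = f (x a) := rfl

omit [NeZero d] in
theorem partner_rel (i : Fin d) (x : Perm α) (f : α ↪ V d) (a : α) :
    x (partner i (rel x f) a) = partner i f (x a) := by
  by_cases h : ∃ b, f b = nb i (f (x a))
  · obtain ⟨b, hb⟩ := h
    rw [partner_of hb]
    have : partner i (rel x f) a = x⁻¹ b := by
      apply partner_of
      simp [hb]
    rw [this]
    simp
  · rw [partner_of_not h, partner_of_not]
    rintro ⟨b, hb⟩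
    exact h ⟨x b, hb⟩

omit [NeZero d] in
theorem hstep_rel (i : Fin d) (x : Perm α) (f : α ↪ V d) (c : Coin d) :
    hstep i (rel x f) c = x⁻¹ * hstep i f c * x := by
  ext1 a
  apply x.injective
  rw [Perm.mul_apply, Perm.mul_apply, perm_apply_inv, hstep_apply, hstep_apply, rel_apply]
  split
  · rw [partner_rel]
  · rfl

theorem H_rel (a : ℕ) (x : Perm α) (f : α ↪ V d) (r e : ℕ → Coin d) (s : ℕ) :
    H a (rel x f) r e s = x⁻¹ * H a f r e s * x := by
  induction s with
  | zero => simp [H_zero]
  | succ s ih =>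
    have h : mv (P a r s) (rel x f) = rel x (mv (P a r s) f) := rfl
    rw [H_succ, H_succ, ih, h, hstep_rel]
    group

theorem Y_rel (a : ℕ) (x : Perm α) (f : α ↪ V d) (r e : ℕ → Coin d) (c : α) (s : ℕ) :
    Y a (rel x f) r e c s = Y a f r e (x c) s := by
  rw [Y, Y, H_rel]
  simp

theorem Red_rel (a : ℕ) (x : Perm α) (f : α ↪ V d) (r : ℕ → Coin d) (s : ℕ) :
    Red a (rel x f) r s = Red a f r s := by
  ext y
  constructor
  · rintro ⟨b, hb⟩
    exact ⟨x b, hb⟩
  · rintro ⟨b, hb⟩
    exact ⟨x⁻¹ b, by simpa using hb⟩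

theorem meets_rel (a : ℕ) (x : Perm α) (f : α ↪ V d) (w e : Fin d → Coin d) (c : α) :
    meets a (rel x f) w e c = meets a f w e (x c) := by
  have h : ∀ s, Meet a (rel x f) (ex w) (ex e) c s = Meet a f (ex w) (ex e) (x c) s := by
    intro s
    rw [Meet, Meet, Y_rel, Red_rel]
  classical
  refine congrArg Finset.card (Finset.ext fun s => ?_)
  rw [mem_filter, mem_filter, h]

theorem Good_rel (a m : ℕ) (x : Perm α) (f : α ↪ V d) (w : Fin d → Coin d) :
    Good a m (rel x f) w ↔ Good a m f w := by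
  constructor
  · intro h e c
    have := h e (x⁻¹ c)
    rwa [meets_rel, perm_apply_inv] at this
  · intro h e c
    rw [meets_rel]
    exact h e (x c)

theorem hid_rel (a : ℕ) (x : Perm α) (f : α ↪ V d) (w e : Fin d → Coin d) :
    hid a d (rel x f) w e = x⁻¹ * hid a d f w e * x := by
  rw [← H_ex, ← H_ex, H_rel]

/-! ### The first step can be absorbed -/

open Classical in
/-- Change the coins of the first step. -/
noncomputable def ch (c : Coin d) (e : ℕ → Coin d) (s : ℕ) : Coin d :=
  if s = 0 then fun y => xor (e 0 y) (c y) else e s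

theorem H_mul_hstep (a : ℕ) (f : α ↪ V d) (r e : ℕ → Coin d) (c : Coin d) (s : ℕ) :
    H a f r e (s + 1) * hstep (dir d a) f c = H a f r (ch c e) (s + 1) := by
  induction s with
  | zero =>
    have h1 : mv (P a r 0) f = f := by rw [P_zero, mv_one]
    rw [H_succ, H_succ, H_zero, H_zero, h1]
    simp only [mul_one, add_zero]
    rw [hstep_mul]
    simp [ch]
  | succ s ih =>
    rw [H_succ a f r e (s + 1), H_succ a f r (ch c e) (s + 1), mul_assoc, ih]
    simp [ch]

/-- Change the coins of the first step. -/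
noncomputable def chf (c : Coin d) : (Fin d → Coin d) ≃ (Fin d → Coin d) :=
  Function.Involutive.toPerm (fun e s => if (s : ℕ) = 0 then fun y => xor (e s y) (c y) else e s)
    (by
      intro e
      funext s
      by_cases h : (s : ℕ) = 0
      · simp [h]
      · simp [h])

theorem hid_mul_hstep (a : ℕ) (f : α ↪ V d) (w e : Fin d → Coin d) (c : Coin d) :
    hid a d f w e * hstep (dir d a) f c = hid a d f w (chf c e) := by
  have hd : 0 < d := Nat.pos_of_ne_zero (NeZero.ne d)
  obtain ⟨k, hk⟩ : ∃ k, d = k + 1 := ⟨d - 1, by omega⟩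
  have h1 : ex (chf c e) = ch c (ex e) := by
    funext s
    by_cases h : s < d
    · by_cases h0 : s = 0
      · subst h0
        simp [ex, h, ch, chf]
      · simp [ex, h, ch, chf, h0]
    · have h0 : s ≠ 0 := by omega
      simp [ex, h, ch, h0]
  have h2 := H_mul_hstep a f (ex w) (ex e) c k
  rw [← hk] at h2
  rw [← H_ex, ← H_ex, h1, h2]

end

section
variable {α : Type*} [Fintype α] [DecidableEq α]

omit [Fintype α] [DecidableEq α] in
open Classical in
/-- The indicator of a good geometry. -/
noncomputable def gi (a m : ℕ) (f : α ↪ V d) (w : Fin d → Coin d) : ℝ :=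
  if Good a m f w then 1 else 0

omit [Fintype α] [DecidableEq α] in
theorem gi_of {a m : ℕ} {f : α ↪ V d} {w : Fin d → Coin d} (h : Good a m f w) :
    gi a m f w = 1 := by
  rw [gi, if_pos h]

omit [Fintype α] [DecidableEq α] in
theorem gi_of_not {a m : ℕ} {f : α ↪ V d} {w : Fin d → Coin d} (h : ¬ Good a m f w) :
    gi a m f w = 0 := by
  rw [gi, if_neg h]

omit [Fintype α] [DecidableEq α] in
theorem gi_nonneg (a m : ℕ) (f : α ↪ V d) (w : Fin d → Coin d) : 0 ≤ gi a m f w := by
  rw [gi]; split <;> norm_num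

omit [Fintype α] [DecidableEq α] in
theorem gi_le_one (a m : ℕ) (f : α ↪ V d) (w : Fin d → Coin d) : gi a m f w ≤ 1 := by
  rw [gi]; split <;> norm_num

omit [Fintype α] [DecidableEq α] in
theorem gi_rel (a m : ℕ) (x : Perm α) (f : α ↪ V d) (w : Fin d → Coin d) :
    gi a m (rel x f) w = gi a m f w := by
  by_cases h : Good a m f w
  · rw [gi_of h, gi_of ((Good_rel a m x f w).2 h)]
  · rw [gi_of_not h, gi_of_not (mt (Good_rel a m x f w).1 h)]

/-- The (sub-)law of `h⁻¹ h'` for a good geometry. -/
noncomputable def q (d : ℕ) [NeZero d] (a m : ℕ) (g : Perm α) : ℝ :=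
  avg fun f : α ↪ V d => avg fun w : Fin d → Coin d => gi a m f w *
      avg fun e : Fin d → Coin d => avg fun e' : Fin d → Coin d =>
        if (hid a d f w e)⁻¹ * hid a d f w e' = g then (1 : ℝ) else 0

/-- Integration against `q`. -/
theorem sum_q_mul (a m : ℕ) (F : Perm α → ℝ) :
    ∑ g, q d a m g * F g = avg fun f : α ↪ V d => avg fun w : Fin d → Coin d => gi a m f w *
      avg fun e : Fin d → Coin d => avg fun e' : Fin d → Coin d =>
        F ((hid a d f w e)⁻¹ * hid a d f w e') := by
  simp only [q, ← avg_mul_right, mul_assoc]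
  simp only [← avg_sum, ← mul_sum]
  simp

theorem q_nonneg (a m : ℕ) (g : Perm α) : 0 ≤ q d a m g := by
  refine avg_nonneg fun f => avg_nonneg fun w => mul_nonneg (gi_nonneg _ _ _ _) ?_
  exact avg_nonneg fun e => avg_nonneg fun e' => ite01_nonneg _

theorem avg_le_of_le {E : Type*} [Fintype E] {f : E → ℝ} {C : ℝ} (hC : 0 ≤ C)
    (h : ∀ e, f e ≤ C) : avg f ≤ C := by
  rcases isEmpty_or_nonempty E with hE | hE
  · simp [avg, hC]
  · exact (avg_mono h).trans (le_of_eq (avg_const C))

theorem sum_q_le (a m : ℕ) : ∑ g : Perm α, q d a m g ≤ 1 := by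
  have h := sum_q_mul (d := d) (α := α) a m fun _ => 1
  simp only [mul_one] at h
  rw [h]
  refine avg_le_of_le zero_le_one fun f => avg_le_of_le zero_le_one fun w => ?_
  rw [avg_const, avg_const, mul_one]
  exact gi_le_one _ _ _ _

theorem q_inv (a m : ℕ) (g : Perm α) : q d a m g⁻¹ = q d a m g := by
  have h : ∀ x y : Perm α, (if x⁻¹ * y = g⁻¹ then (1 : ℝ) else 0) =
      if y⁻¹ * x = g then (1 : ℝ) else 0 := by
    intro x y
    have h1 : x⁻¹ * y = g⁻¹ ↔ y⁻¹ * x = g := by
      constructor
      · intro h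
        rw [← inv_inj, ← h]
        group
      · intro h
        rw [← h]
        group
    simp only [h1]
  unfold q
  simp only [h]
  refine congrArg avg (funext fun f => congrArg avg (funext fun w => congrArg _ ?_))
  exact avg_comm _

theorem q_conj (a m : ℕ) (x g : Perm α) : q d a m (x * g * x⁻¹) = q d a m g := by
  have h := avg_equiv (α := (α ↪ V d)) (β := (α ↪ V d))
    { toFun := rel x, invFun := rel x⁻¹
      left_inv := fun f => by ext; simp
      right_inv := fun f => by ext; simp }
    (fun f : α ↪ V d => avg fun w : Fin d → Coin d => gi a m f w *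
      avg fun e : Fin d → Coin d => avg fun e' : Fin d → Coin d =>
        if (hid a d f w e)⁻¹ * hid a d f w e' = g then (1 : ℝ) else 0)
  unfold q
  rw [← h]
  congr 1
  funext f
  congr 1
  funext w
  simp only [Equiv.coe_fn_mk, gi_rel, hid_rel]
  congr 1
  congr 1
  funext e
  congr 1
  funext e'
  congr 1
  rw [eq_iff_iff]
  have h3 : (x⁻¹ * hid a d f w e * x)⁻¹ * (x⁻¹ * hid a d f w e' * x) =
      x⁻¹ * ((hid a d f w e)⁻¹ * hid a d f w e') * x := by group
  rw [h3]
  constructor
  · intro h
    rw [h]; group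
  · intro h
    rw [← h]; group

theorem q_fix_le (a m : ℕ) (S : Finset α) :
    (∑ g with ∀ c ∈ S, g c = c, q d a m g) ≤ ((1 / 2 : ℝ) ^ ((m : ℝ) / 2)) ^ S.card := by
  classical
  have h := sum_q_mul (d := d) (α := α) a m fun g => if ∀ c ∈ S, g c = c then (1 : ℝ) else 0
  have h2 : ∑ g : Perm α with ∀ c ∈ S, g c = c, q d a m g =
      ∑ g, q d a m g * if ∀ c ∈ S, g c = c then (1 : ℝ) else 0 := by
    rw [sum_filter]
    refine sum_congr rfl fun g _ => ?_
    split <;> simp
  rw [h2, h]
  have hC : (0 : ℝ) ≤ ((1 / 2 : ℝ) ^ ((m : ℝ) / 2)) ^ S.card := by positivity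
  refine avg_le_of_le hC fun f => avg_le_of_le hC fun w => ?_
  by_cases hG : Good a m f w
  · rw [gi_of hG, one_mul]
    refine avg_le_of_le hC fun e => ?_
    refine le_trans (le_of_eq ?_) (avg_loop_le a m f w e hG S)
    congr 1
    funext e'
    congr 1
    rw [eq_iff_iff]
    refine forall₂_congr fun c _ => ?_
    rw [Perm.mul_apply, Perm.inv_eq_iff_eq]
    exact eq_comm
  · rw [gi_of_not hG, zero_mul]
    exact hC

/-- The operator of one geometry. -/
noncomputable def B (a : ℕ) (f : α ↪ V d) (w : Fin d → Coin d) (φ : FS α) : FS α :=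
  vavg fun e : Fin d → Coin d => lt (hid a d f w e) φ

theorem inner_op_q (a m : ℕ) (φ : FS α) :
    ⟪op (q d a m) φ, φ⟫_ℝ = avg fun f : α ↪ V d => avg fun w : Fin d → Coin d =>
      gi a m f w * ‖B a f w φ‖ ^ 2 := by
  have h1 : ⟪op (q d a m) φ, φ⟫_ℝ = ∑ g, q d a m g * ⟪lt g φ, φ⟫_ℝ := by
    rw [op, LinearMap.sum_apply, sum_inner]
    refine sum_congr rfl fun g _ => ?_
    rw [LinearMap.smul_apply, real_inner_smul_left]
  rw [h1, sum_q_mul]
  congr 1
  funext f
  congr 1
  funext w
  congr 1
  rw [← real_inner_self_eq_norm_sq, B, inner_vavg_vavg, avg_comm]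
  simp only [inner_lt_inv_mul]

theorem norm_B_le (a : ℕ) (f : α ↪ V d) (w : Fin d → Coin d) (φ : FS α) :
    ‖B a f w φ‖ ≤ ‖A (dir d a) f φ‖ := by
  have h1 : B a f w φ = B a f w (A (dir d a) f φ) := by
    have h2 : ∀ c : Coin d, B a f w (lt (hstep (dir d a) f c) φ) = B a f w φ := by
      intro c
      rw [B, B]
      have h3 : ∀ e, lt (hid a d f w e) (lt (hstep (dir d a) f c) φ) =
          lt (hid a d f w (chf c e)) φ := by
        intro e
        rw [← lt_mul, hid_mul_hstep]
      simp only [h3]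
      exact vavg_equiv (chf c) fun e => lt (hid a d f w e) φ
    rw [A, B, B]
    simp only [vavg_map]
    rw [vavg_comm]
    have h4 : ∀ c : Coin d, (vavg fun e : Fin d → Coin d =>
        lt (hid a d f w e) (lt (hstep (dir d a) f c) φ)) = B a f w φ := h2
    simp only [h4]
    rw [vavg_const]
    rfl
  rw [h1]
  exact norm_vavg_le _ fun e => (norm_lt _ _).le

end

/-! ### The data of the Thorp side -/

section
variable {α : Type} [Fintype α] [DecidableEq α]

theorem data_of (a m : ℕ) {κ : ℝ} (h4 : 4 ≤ d) (hN : Fintype.card α = 7 * 2 ^ (d - 3))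
    (hκ : (1 / 2 : ℝ) ^ ((m : ℝ) / 2) ≤ (Fintype.card α : ℝ) ^ (-κ)) :
    Data (q d a m : Perm α → ℝ) κ where
  even := by
    rw [hN]
    obtain ⟨k, hk⟩ : ∃ k, d - 3 = k + 1 := ⟨d - 4, by omega⟩
    rw [hk, pow_succ]
    exact ⟨7 * 2 ^ k, by ring⟩
  nonneg := q_nonneg a m
  sum_le := sum_q_le a m
  symm := q_inv a m
  class_fn := q_conj a m
  psd := by
    intro φ
    rw [inner_op_q]
    refine avg_nonneg fun f => avg_nonneg fun w => mul_nonneg (gi_nonneg _ _ _ _) (by positivity)
  fix_le := by
    intro S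
    refine (q_fix_le a m S).trans ?_
    exact pow_le_pow_left₀ (by positivity) hκ _
  matching := by
    classical
    refine ⟨α ↪ V d, inferInstance, fun _ => 1 / Fintype.card (α ↪ V d),
      fun f => (pairs (dir d a) f).toList.map fun x => (x, partner (dir d a) f x), ?_, ?_, ?_, ?_,
      ?_⟩
    · intro f
      positivity
    · rw [sum_const, card_univ, nsmul_eq_mul, mul_one_div]
      exact div_self_le_one _
    · intro f
      exact isMatching_pairs _ f
    · intro f
      rw [List.length_map, length_toList]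
      have h1 := card_pairs (dir d a) f
      have h2 : 2 ^ d = 8 * 2 ^ (d - 3) := by
        rw [show (8 : ℕ) = 2 ^ 3 by norm_num, ← pow_add]
        congr 1
        omega
      rw [hN] at h1 ⊢
      omega
    · intro φ
      rw [inner_op_q]
      have h1 : ∀ f : α ↪ V d, (avg fun w : Fin d → Coin d =>
          gi a m f w * ‖B a f w φ‖ ^ 2) ≤
          ⟪PM ((pairs (dir d a) f).toList.map fun x => (x, partner (dir d a) f x)) φ, φ⟫_ℝ := by
        intro f
        rw [PM_pairs, inner_A]
        refine avg_le_of_le (by positivity) fun w => ?_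
        have h2 := norm_B_le a f w φ
        have h3 : ‖B a f w φ‖ ^ 2 ≤ ‖A (dir d a) f φ‖ ^ 2 :=
          pow_le_pow_left₀ (norm_nonneg _) h2 2
        calc gi a m f w * ‖B a f w φ‖ ^ 2 ≤ 1 * ‖A (dir d a) f φ‖ ^ 2 := by
              gcongr
              exact gi_le_one _ _ _ _
          _ = _ := one_mul _
      refine (avg_mono h1).trans (le_of_eq ?_)
      rw [avg, sum_div]
      refine sum_congr rfl fun f _ => ?_
      ring

end

end Vale.Agent.P162.H768
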