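import Vale.Agent.P162.H768.Data

/-!
# P162, stage 2, part B: final form
-/

open Finset Equiv
open scoped InnerProductSpace

namespace Vale.Agent.P162.H768

open Vale.Agent.P162.S2 Vale.Agent.P162.S2.Abs

variable {d : ℕ} [NeZero d]

/-- The data of the Thorp side, `m = d / 8`, `κ = 1 / 20`, `N = 7 n / 8` lines. -/
theorem data {α : Type} [Fintype α] [DecidableEq α] (a : ℕ) (hd : 40 ≤ d)
    (hN : Fintype.card α = 7 * 2 ^ (d - 3)) :
    Data (q d a (d / 8) : Perm α → ℝ) (1 / 20) := by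
  apply data_of a (d / 8) (by omega) hN
  have h1 : (Fintype.card α : ℝ) ≤ (2 : ℝ) ^ (d : ℝ) := by
    rw [Real.rpow_natCast]
    have h2 : 7 * 2 ^ (d - 3) ≤ 2 ^ d := by
      have h3 : 2 ^ d = 8 * 2 ^ (d - 3) := by
        rw [show (8 : ℕ) = 2 ^ 3 by norm_num, ← pow_add]
        congr 1
        omega
      omega
    rw [hN]
    exact_mod_cast h2
  have h0 : (0 : ℝ) < Fintype.card α := by
    rw [hN]
    positivity
  have h4 : ((2 : ℝ) ^ (d : ℝ)) ^ (-(1 / 20 : ℝ)) ≤ (Fintype.card α : ℝ) ^ (-(1 / 20 : ℝ)) :=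
    Real.rpow_le_rpow_of_nonpos h0 h1 (by norm_num)
  refine le_trans ?_ h4
  rw [← Real.rpow_mul (by norm_num), one_div, Real.inv_rpow (by norm_num),
    ← Real.rpow_neg (by norm_num)]
  apply Real.rpow_le_rpow_of_exponent_le (by norm_num)
  have h5 : d ≤ 10 * (d / 8) := by omega
  have h6 : (d : ℝ) ≤ 10 * ((d / 8 : ℕ) : ℝ) := by exact_mod_cast h5
  linarith

/-- The probability of a bad geometry is at most `2 ^ (-d / 4)`. -/
theorem bad_le {α : Type*} [Fintype α] [DecidableEq α] (a : ℕ) (hd : 40 ≤ d)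
    (hN : Fintype.card α = 7 * 2 ^ (d - 3)) :
    (avg fun f : α ↪ V d => avg fun w : Fin d → Coin d => 1 - gi a (d / 8) f w) ≤
      (1 / 2 : ℝ) ^ ((d : ℝ) / 4) := by
  have h3 : 2 ^ d = 8 * 2 ^ (d - 3) := by
    rw [show (8 : ℕ) = 2 ^ 3 by norm_num, ← pow_add]
    congr 1
    omega
  have h2 : 7 * 2 ^ (d - 3) ≤ 2 ^ d := by omega
  have h1 := avg_bad_le (α := α) (d := d) a (d / 8) (by omega) (by rw [hN]; exact h2)
  have e1 : ∀ (f : α ↪ V d) (w : Fin d → Coin d), 1 - gi a (d / 8) f w =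
      open Classical in if Good a (d / 8) f w then (0 : ℝ) else 1 := by
    intro f w
    by_cases h : Good a (d / 8) f w
    · rw [gi_of h, if_pos h, sub_self]
    · rw [gi_of_not h, if_neg h, sub_zero]
  simp only [e1]
  refine h1.trans ?_
  set m := d / 8 with hm
  set r := d - m + 1 with hr
  have hcard : (Fintype.card α : ℝ) ≤ 2 ^ d := by
    rw [hN]; exact_mod_cast h2
  have hchoose : (d.choose r : ℝ) ≤ 2 ^ d := by
    exact_mod_cast Nat.choose_le_two_pow d r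
  have hρ : ((2 ^ d - Fintype.card α : ℕ) : ℝ) / (2 ^ d - 1 : ℕ) ≤ 1 / 7 := by
    have hp : 0 < 2 ^ (d - 3) := by positivity
    have h4 : 2 ^ d - Fintype.card α = 2 ^ (d - 3) := by omega
    rw [h4, div_le_div_iff₀ _ (by norm_num)]
    · have h5 : 2 ^ (d - 3) * 7 ≤ 1 * (2 ^ d - 1) := by omega
      exact_mod_cast h5
    · have h5 : 0 < 2 ^ d - 1 := by omega
      exact_mod_cast h5
  have hρ0 : (0 : ℝ) ≤ ((2 ^ d - Fintype.card α : ℕ) : ℝ) / (2 ^ d - 1 : ℕ) := by positivity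
  have key : (Fintype.card α : ℝ) * (2 ^ m * ((d.choose r : ℝ) *
      (((2 ^ d - Fintype.card α : ℕ) : ℝ) / (2 ^ d - 1 : ℕ)) ^ r)) ≤
      2 ^ d * (2 ^ m * (2 ^ d * (1 / 7) ^ r)) := by
    gcongr
  refine key.trans ?_
  have hy : (0 : ℝ) ≤ (1 / 2 : ℝ) ^ ((d : ℝ) / 4) := by positivity
  refine le_of_pow_le_pow_left₀ (n := 8) (by norm_num) hy ?_
  have e2 : ((1 / 2 : ℝ) ^ ((d : ℝ) / 4)) ^ 8 = (1 / 4) ^ d := by
    rw [← Real.rpow_natCast, ← Real.rpow_mul (by norm_num)]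
    have : (d : ℝ) / 4 * ((8 : ℕ) : ℝ) = ((2 * d : ℕ) : ℝ) := by
      push_cast; ring
    rw [this, Real.rpow_natCast, pow_mul]
    norm_num
  rw [e2]
  have e3 : ((2 : ℝ) ^ d * (2 ^ m * (2 ^ d * (1 / 7) ^ r))) ^ 8 =
      2 ^ (16 * d + 8 * m) * (1 / 7) ^ (8 * r) := by
    rw [mul_pow, mul_pow, mul_pow, ← pow_mul, ← pow_mul, ← pow_mul]
    rw [show r * 8 = 8 * r by ring]
    rw [← mul_assoc, ← mul_assoc, ← pow_add, ← pow_add]
    congr 2
    ring
  rw [e3]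
  have h8 : 8 * m ≤ d := by omega
  have h9 : 7 * d ≤ 8 * r := by omega
  calc (2 : ℝ) ^ (16 * d + 8 * m) * (1 / 7) ^ (8 * r)
      ≤ 2 ^ (17 * d) * (1 / 7) ^ (7 * d) := by
        apply mul_le_mul
        · exact pow_le_pow_right₀ (by norm_num) (by omega)
        · exact pow_le_pow_of_le_one (by norm_num) (by norm_num) h9
        · positivity
        · positivity
    _ = (2 ^ 17 * (1 / 7) ^ 7) ^ d := by
        rw [mul_pow, ← pow_mul, ← pow_mul]
    _ ≤ (1 / 4) ^ d := by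
        apply pow_le_pow_left₀ (by positivity)
        norm_num

end Vale.Agent.P162.H768
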