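import Vale.Agent.P162.H768.Traj
import Vale.Agent.P162.H768.Count

/-!
# P162, stage 2, part B: good geometries, the loop bound and the bad-geometry bound
-/

open Finset Equiv

namespace Vale.Agent.P162.H768

open Vale.Agent.P162.S2

variable {d : ℕ} [NeZero d] {α : Type*}

/-! ### Finite families of coins -/

/-- Extension of a finite family of coins by zero coins. -/
def ex {L : ℕ} (w : Fin L → Coin d) (s : ℕ) : Coin d :=
  if h : s < L then w ⟨s, h⟩ else fun _ => false

omit [NeZero d] in
theorem ex_fin {L : ℕ} (w : Fin L → Coin d) (s : Fin L) : ex w s = w s := by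
  simp [ex]

omit [NeZero d] in
theorem ex_restrict {L : ℕ} (w : Fin L → Coin d) : (fun i : Fin L => ex w i) = w := by
  funext i
  exact ex_fin w i

omit [NeZero d] in
theorem ex_of_le {L : ℕ} (w : Fin L → Coin d) {s : ℕ} (h : L ≤ s) : ex w s = fun _ => false := by
  simp [ex, Nat.not_lt.2 h]

theorem H_ex (a : ℕ) {L : ℕ} (f : α ↪ V d) (w e : Fin L → Coin d) :
    H a f (ex w) (ex e) L = hid a L f w e := by
  rw [H, ex_restrict, ex_restrict]

theorem P_ex (a : ℕ) {L : ℕ} (w : Fin L → Coin d) : P a (ex w) L = pos a L w := by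
  rw [P, ex_restrict]

open Classical in
/-- The number of meetings of the card `c` in the sweep. -/
noncomputable def meets (a : ℕ) (f : α ↪ V d) (w e : Fin d → Coin d) (c : α) : ℕ :=
  (univ.filter fun s : Fin d => Meet a f (ex w) (ex e) c s).card

/-- Good geometry: whatever the hidden coins are, every card has at least `m` meetings. -/
def Good (a m : ℕ) (f : α ↪ V d) (w : Fin d → Coin d) : Prop :=
  ∀ (e : Fin d → Coin d) (c : α), m ≤ meets a f w e c

/-! ### The loop bound -/

section loops
variable [DecidableEq α]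

open Classical in
/-- The switches where the cards of `S` meet cards. -/
noncomputable def DD (a : ℕ) (f : α ↪ V d) (w e : Fin d → Coin d) (S : Finset α) :
    Finset (Fin d × V d) :=
  (((univ : Finset (Fin d)) ×ˢ S).filter fun p => Meet a f (ex w) (ex e) p.2 p.1).image
    fun p => (p.1, rep (dir d (a + p.1)) (Y a f (ex w) (ex e) p.2 p.1))

omit [NeZero d] in
theorem eq_of_rep_eq {i : Fin d} {x y : V d} (h : rep i x = rep i y) (h2 : x i = y i) : x = y := by
  rcases (rep_eq_iff i x y).1 h with h3 | h3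
  · exact h3.symm
  · exfalso
    rw [h3] at h2
    simp [nb] at h2

omit [DecidableEq α] in
theorem card_DD (a m : ℕ) (f : α ↪ V d) (w e : Fin d → Coin d) (hG : Good a m f w)
    (S : Finset α) : m * S.card ≤ 2 * (DD a f w e S).card := by
  classical
  have h1 : (((univ : Finset (Fin d)) ×ˢ S).filter fun p =>
      Meet a f (ex w) (ex e) p.2 p.1).card ≤ 2 * (DD a f w e S).card := by
    apply Finset.card_le_mul_card_image
    rintro ⟨s, y⟩ _
    have : (2 : ℕ) = (univ : Finset Bool).card := by simp
    rw [this]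
    apply Finset.card_le_card_of_injOn (fun p => Y a f (ex w) (ex e) p.2 s (dir d (a + s)))
      (fun _ _ => mem_coe.2 (mem_univ _))
    rintro ⟨s1, c1⟩ h1 ⟨s2, c2⟩ h2 h3
    simp only [coe_filter, mem_filter, mem_product, mem_univ, true_and, Set.mem_ofPred_eq,
      Prod.mk.injEq] at h1 h2 h3
    obtain ⟨_, h1a, h1b⟩ := h1
    obtain ⟨_, h2a, h2b⟩ := h2
    subst h1a
    subst h2a
    have h4 := eq_of_rep_eq (h1b.trans h2b.symm) h3
    have h5 := Y_injective a f (ex w) (ex e) _ h4
    rw [h5]
  refine le_trans ?_ h1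
  have h2 : (((univ : Finset (Fin d)) ×ˢ S).filter fun p =>
      Meet a f (ex w) (ex e) p.2 p.1).card = ∑ c ∈ S, meets a f w e c := by
    rw [card_eq_sum_card_fiberwise (f := fun p => p.2) (t := S)
      (fun p hp => (mem_product.1 (mem_filter.1 hp).1).2)]
    refine sum_congr rfl fun c hc => ?_
    rw [meets]
    refine card_bij (fun p _ => p.1) ?_ ?_ ?_
    · rintro ⟨s, c'⟩ hp
      simp only [mem_filter, mem_product, mem_univ, true_and] at hp ⊢
      obtain ⟨⟨_, h⟩, rfl⟩ := hp
      exact h
    · rintro ⟨s1, c1⟩ h1 ⟨s2, c2⟩ h2 h3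
      simp only [mem_filter] at h1 h2 h3
      rw [h3, h1.2, h2.2]
    · intro s hs
      simp only [mem_filter, mem_univ, true_and] at hs
      exact ⟨(s, c), by simp [hc, hs], rfl⟩
  rw [h2, mul_comm, ← smul_eq_mul, ← sum_const]
  exact sum_le_sum fun c _ => hG e c

omit [DecidableEq α] in
/-- **Loop bound** for a fixed first hidden configuration. -/
theorem avg_loop_le (a m : ℕ) (f : α ↪ V d) (w e : Fin d → Coin d) (hG : Good a m f w)
    (S : Finset α) [DecidablePred fun e' : Fin d → Coin d => ∀ c ∈ S, hid a d f w e c = hid a d f w e' c] :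
    (avg fun e' : Fin d → Coin d =>
      if ∀ c ∈ S, hid a d f w e c = hid a d f w e' c then (1 : ℝ) else 0) ≤
      ((1 / 2 : ℝ) ^ ((m : ℝ) / 2)) ^ S.card := by
  classical
  have h1 : (avg fun e' : Fin d → Coin d =>
      if ∀ c ∈ S, hid a d f w e c = hid a d f w e' c then (1 : ℝ) else 0) ≤
      avg fun e' : Fin d → Coin d =>
        if ∀ p ∈ DD a f w e S, e' p.1 p.2 = e p.1 p.2 then (1 : ℝ) else 0 := by
    apply avg_mono
    intro e'
    by_cases h : ∀ c ∈ S, hid a d f w e c = hid a d f w e' c
    · rw [if_pos h, if_pos]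
      rintro ⟨s, y⟩ hp
      obtain ⟨⟨s', c⟩, hp', hp''⟩ := mem_image.1 hp
      simp only [mem_filter, mem_product, mem_univ, true_and, Prod.mk.injEq] at hp' hp''
      obtain ⟨rfl, rfl⟩ := hp''
      obtain ⟨hcS, hm⟩ := hp'
      have h2 := h c hcS
      rw [← H_ex, ← H_ex] at h2
      have h3 := coin_eq_of_H_eq le_rfl h2 s'.2 hm
      rw [ex_fin, ex_fin] at h3
      exact h3.symm
    · rw [if_neg h]
      split <;> norm_num
  refine h1.trans ?_
  rw [avg_agree_on, ← Real.rpow_natCast, ← Real.rpow_natCast, ← Real.rpow_mul (by norm_num)]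
  apply Real.rpow_le_rpow_of_exponent_ge (by norm_num) (by norm_num)
  have h2 := card_DD a m f w e hG S
  have h3 : (m : ℝ) * S.card ≤ 2 * (DD a f w e S).card := by exact_mod_cast h2
  linarith

end loops

/-! ### The bad-geometry bound -/

section bad

/-- The card `c`, without hidden coins, meets a line at step `s`. -/
def Meet0 (a : ℕ) (f : α ↪ V d) (r : ℕ → Coin d) (c : α) (s : ℕ) : Prop :=
  nb (dir d (a + s)) (P a r s (f c)) ∈ Red a f r s

open Classical in
/-- The coins modified along the trajectory of the card `c`. -/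
noncomputable def om (a : ℕ) (f : α ↪ V d) (r e : ℕ → Coin d) (c : α) (s : ℕ) : Coin d := fun y =>
  xor (r s y) (decide (Meet a f r e c s ∧ y = rep (dir d (a + s)) (Y a f r e c s)) && e s y)

theorem Red_succ (a : ℕ) (f : α ↪ V d) (r : ℕ → Coin d) (s : ℕ) :
    Red a f r (s + 1) = sw (dir d (a + s)) (r s) '' Red a f r s := by
  rw [Red, Red, ← Set.range_comp]
  rfl

omit [NeZero d] in
theorem image_sw_eq (i : Fin d) (c c' : Coin d) (A : Set (V d))
    (h : ∀ x ∈ A, c (rep i x) ≠ c' (rep i x) → nb i x ∈ A) : sw i c '' A ⊆ sw i c' '' A := by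
  rintro _ ⟨x, hx, rfl⟩
  by_cases h1 : c (rep i x) = c' (rep i x)
  · exact ⟨x, hx, by rw [sw_apply, sw_apply, h1]⟩
  · refine ⟨nb i x, h x hx h1, ?_⟩
    rw [sw_apply, sw_apply, rep_nb, nb_nb]
    cases h2 : c (rep i x) <;> cases h3 : c' (rep i x) <;> simp [h2, h3] at h1 ⊢

theorem om_spec (a : ℕ) (f : α ↪ V d) (r e : ℕ → Coin d) (c : α) (s : ℕ) :
    P a (om a f r e c) s (f c) = Y a f r e c s ∧ Red a f (om a f r e c) s = Red a f r s := by
  classical
  induction s with
  | zero => exact ⟨rfl, rfl⟩
  | succ s ih =>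
    obtain ⟨ih1, ih2⟩ := ih
    set i := dir d (a + s) with hi
    constructor
    · rw [P_succ, Perm.mul_apply, ih1, Y_succ, sw_apply]
      congr 2
      simp only [om, ← hi, and_true]
    · rw [Red_succ, Red_succ, ih2, ← hi]
      have key : ∀ x ∈ Red a f r s, om a f r e c s (rep i x) ≠ r s (rep i x) →
          nb i x ∈ Red a f r s := by
        intro x hx hne
        have h2 : Meet a f r e c s ∧ rep i x = rep i (Y a f r e c s) := by
          by_contra hcon
          apply hne
          simp only [om, ← hi]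
          rw [decide_eq_false hcon]
          simp
        have h3 := (rep_eq_iff i x (Y a f r e c s)).1 h2.2
        rcases h3 with h3 | h3
        · rw [← h3]; exact h2.1
        · rw [← h3]; exact Y_mem_Red a f r e c s
      apply Set.Subset.antisymm
      · exact image_sw_eq _ _ _ _ key
      · exact image_sw_eq _ _ _ _ fun x hx hne => key x hx (Ne.symm hne)

theorem om_meet (a : ℕ) (f : α ↪ V d) (r e : ℕ → Coin d) (c : α) (s : ℕ) :
    Meet0 a f (om a f r e c) c s ↔ Meet a f r e c s := by
  rw [Meet0, (om_spec a f r e c s).1, (om_spec a f r e c s).2, Meet]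

theorem om_ex (a : ℕ) (f : α ↪ V d) {L : ℕ} (w e : Fin L → Coin d) (c : α) :
    ex (fun s : Fin L => om a f (ex w) (ex e) c s) = om a f (ex w) (ex e) c := by
  funext s
  by_cases h : s < L
  · simp [ex, h]
  · rw [ex_of_le _ (Nat.not_lt.1 h)]
    funext y
    simp [om, ex_of_le w (Nat.not_lt.1 h), ex_of_le e (Nat.not_lt.1 h)]

open Classical in
/-- The number of meetings without hidden coins. -/
noncomputable def meets0 (a : ℕ) (f : α ↪ V d) (w : Fin d → Coin d) (c : α) : ℕ :=
  (univ.filter fun s : Fin d => Meet0 a f (ex w) c s).card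

open Classical in
/-- The switches of the meetings without hidden coins. -/
noncomputable def D0 (a : ℕ) (f : α ↪ V d) (w : Fin d → Coin d) (c : α) :
    Finset (Fin d × V d) :=
  (univ.filter fun s : Fin d => Meet0 a f (ex w) c s).image
    fun s => (s, rep (dir d (a + s)) (P a (ex w) s (f c)))

theorem exists_meets0 (a : ℕ) (f : α ↪ V d) (w e : Fin d → Coin d) (c : α) :
    ∃ v : Fin d → Coin d, meets0 a f v c = meets a f w e c ∧
      ∀ p, p ∉ D0 a f v c → w p.1 p.2 = v p.1 p.2 := by
  classical
  refine ⟨fun s => om a f (ex w) (ex e) c s, ?_, ?_⟩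
  · rw [meets0, meets]
    congr 1
    ext s
    rw [mem_filter, mem_filter, om_ex, om_meet]
  · rintro ⟨s, y⟩ hp
    by_contra hne
    apply hp
    have h2 : Meet a f (ex w) (ex e) c s ∧
        y = rep (dir d (a + s)) (Y a f (ex w) (ex e) c s) := by
      by_contra hcon
      apply hne
      simp only [om]
      rw [decide_eq_false hcon, ex_fin]
      simp
    rw [D0, mem_image]
    refine ⟨s, ?_, ?_⟩
    · rw [mem_filter, om_ex, om_meet]
      exact ⟨mem_univ _, h2.1⟩
    · rw [om_ex, (om_spec a f (ex w) (ex e) c s).1, h2.2]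

theorem card_bad_le (a m : ℕ) (f : α ↪ V d) (c : α)
    [DecidablePred fun w : Fin d → Coin d => ∃ e, meets a f w e c < m]
    [DecidablePred fun w : Fin d → Coin d => meets0 a f w c < m] :
    (univ.filter fun w : Fin d → Coin d => ∃ e, meets a f w e c < m).card ≤
      (univ.filter fun w : Fin d → Coin d => meets0 a f w c < m).card * 2 ^ m := by
  classical
  have h1 : (univ.filter fun w : Fin d → Coin d => ∃ e, meets a f w e c < m) ⊆
      (univ.filter fun w : Fin d → Coin d => meets0 a f w c < m).biUnion fun v =>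
        univ.filter fun w : Fin d → Coin d => ∀ p, p ∉ D0 a f v c → w p.1 p.2 = v p.1 p.2 := by
    intro w hw
    obtain ⟨e, he⟩ := (mem_filter.1 hw).2
    obtain ⟨v, hv1, hv2⟩ := exists_meets0 a f w e c
    rw [mem_biUnion]
    exact ⟨v, mem_filter.2 ⟨mem_univ _, by omega⟩, mem_filter.2 ⟨mem_univ _, hv2⟩⟩
  refine (card_le_card h1).trans ((card_biUnion_le).trans ?_)
  rw [← smul_eq_mul, ← sum_const]
  refine sum_le_sum fun v hv => ?_
  rw [card_agree_off]
  apply Nat.pow_le_pow_right (by norm_num)
  have h2 := (mem_filter.1 hv).2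
  exact (card_image_le.trans (le_of_eq rfl)).trans h2.le

theorem Meet0_iff (a : ℕ) (f : α ↪ V d) (r : ℕ → Coin d) (c : α) (s : ℕ) :
    Meet0 a f r c s ↔ par a r (f c) s ∈ Set.range f := by
  rw [Meet0, ← P_par]
  constructor
  · rintro ⟨b, hb⟩
    exact ⟨b, (P a r s).injective hb⟩
  · rintro ⟨b, hb⟩
    exact ⟨b, congrArg (P a r s) hb⟩

variable [Fintype α]

theorem ite01_nonneg (p : Prop) [Decidable p] : (0 : ℝ) ≤ if p then 1 else 0 := by
  split <;> norm_num

theorem avg_meets0_le (a m : ℕ) (hm : m ≤ d) (w : Fin d → Coin d) (c : α)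
    (hN : Fintype.card α ≤ 2 ^ d)
    [DecidablePred fun f : α ↪ V d => meets0 a f w c < m] :
    (avg fun f : α ↪ V d => if meets0 a f w c < m then (1 : ℝ) else 0) ≤
      (d.choose (d - m + 1)) *
        (((2 ^ d - Fintype.card α : ℕ) : ℝ) / (2 ^ d - 1 : ℕ)) ^ (d - m + 1) := by
  classical
  have hd : 1 ≤ d := Nat.one_le_iff_ne_zero.2 (NeZero.ne d)
  have hV : Fintype.card (V d) = 2 ^ d := by simp
  set q := d - m + 1 with hq
  have h1 : ∀ f : α ↪ V d, (if meets0 a f w c < m then (1 : ℝ) else 0) ≤
      ∑ J ∈ powersetCard q (univ : Finset (Fin d)),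
        if ∀ y ∈ J.image (fun s : Fin d => par a (ex w) (f c) s), y ∉ Set.range f then (1 : ℝ)
          else 0 := by
    intro f
    by_cases h : meets0 a f w c < m
    · rw [if_pos h]
      have h2 : q ≤ (univ.filter fun s : Fin d => ¬ Meet0 a f (ex w) c s).card := by
        have h3 := Finset.card_filter_add_card_filter_not (s := (univ : Finset (Fin d)))
          (fun s : Fin d => Meet0 a f (ex w) c s)
        rw [card_univ, Fintype.card_fin] at h3
        rw [meets0] at h
        omega
      obtain ⟨J, hJ1, hJ2⟩ := exists_subset_card_eq h2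
      have h4 : (1 : ℝ) = if ∀ y ∈ J.image (fun s : Fin d => par a (ex w) (f c) s),
          y ∉ Set.range f then (1 : ℝ) else 0 := by
        rw [if_pos]
        intro y hy
        obtain ⟨s, hs, rfl⟩ := mem_image.1 hy
        have h5 := (mem_filter.1 (hJ1 hs)).2
        rwa [Meet0_iff] at h5
      refine h4.trans_le ?_
      exact single_le_sum (f := fun J : Finset (Fin d) =>
        if ∀ y ∈ J.image (fun s : Fin d => par a (ex w) (f c) s), y ∉ Set.range f then (1 : ℝ)
          else 0) (fun J _ => ite01_nonneg _) (mem_powersetCard.2 ⟨subset_univ _, hJ2⟩)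
    · rw [if_neg h]
      exact sum_nonneg fun J _ => ite01_nonneg _
  refine (avg_mono h1).trans ?_
  rw [avg_sum]
  have h2 : ∀ J ∈ powersetCard q (univ : Finset (Fin d)),
      (avg fun f : α ↪ V d => if ∀ y ∈ J.image (fun s : Fin d => par a (ex w) (f c) s),
        y ∉ Set.range f then (1 : ℝ) else 0) ≤
      (((2 ^ d - Fintype.card α : ℕ) : ℝ) / (2 ^ d - 1 : ℕ)) ^ q := by
    intro J hJ
    have h3 := avg_avoid_le (β := V d) c (fun x => J.image fun s : Fin d => par a (ex w) x s) q
      (fun x hx => by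
        obtain ⟨s, _, hs⟩ := mem_image.1 hx
        exact par_ne a (ex w) x s hs)
      (fun x => by
        rw [card_image_of_injOn, (mem_powersetCard.1 hJ).2]
        intro s _ t _ hst
        exact Fin.ext (par_injOn a (ex w) x s.2 t.2 hst))
      (by rw [hV]; exact hN)
      (by rw [hV]; calc 2 = 2 ^ 1 := rfl
            _ ≤ 2 ^ d := Nat.pow_le_pow_right (by norm_num) hd)
    rw [hV] at h3
    exact h3
  refine (sum_le_sum h2).trans ?_
  rw [sum_const, card_powersetCard, card_univ, Fintype.card_fin, nsmul_eq_mul]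

open Classical in
/-- **Bad-geometry bound.** -/
theorem avg_bad_le (a m : ℕ) (hm : m ≤ d) (hN : Fintype.card α ≤ 2 ^ d) :
    (avg fun f : α ↪ V d => avg fun w : Fin d → Coin d =>
      if Good a m f w then (0 : ℝ) else 1) ≤
      Fintype.card α * (2 ^ m * ((d.choose (d - m + 1)) *
        (((2 ^ d - Fintype.card α : ℕ) : ℝ) / (2 ^ d - 1 : ℕ)) ^ (d - m + 1))) := by
  have h1 : (avg fun f : α ↪ V d => avg fun w : Fin d → Coin d =>
      if Good a m f w then (0 : ℝ) else 1) ≤
      avg fun f : α ↪ V d => ∑ c : α, avg fun w : Fin d → Coin d =>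
        if ∃ e, meets a f w e c < m then (1 : ℝ) else 0 := by
    apply avg_mono
    intro f
    rw [← avg_sum]
    apply avg_mono
    intro w
    by_cases h : Good a m f w
    · rw [if_pos h]
      exact sum_nonneg fun c _ => ite01_nonneg _
    · rw [if_neg h]
      simp only [Good, not_forall, not_le] at h
      obtain ⟨e, c, hc⟩ := h
      have h4 : (1 : ℝ) = if ∃ e, meets a f w e c < m then (1 : ℝ) else 0 := by
        rw [if_pos ⟨e, hc⟩]
      refine h4.trans_le ?_
      exact single_le_sum (f := fun c : α => if ∃ e, meets a f w e c < m then (1 : ℝ) else 0)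
        (fun c _ => ite01_nonneg _) (mem_univ c)
  refine h1.trans ?_
  rw [avg_sum]
  have h2 : ∀ c ∈ (univ : Finset α), (avg fun f : α ↪ V d => avg fun w : Fin d → Coin d =>
      if ∃ e, meets a f w e c < m then (1 : ℝ) else 0) ≤ 2 ^ m * ((d.choose (d - m + 1)) *
        (((2 ^ d - Fintype.card α : ℕ) : ℝ) / (2 ^ d - 1 : ℕ)) ^ (d - m + 1)) := by
    intro c _
    have h3 : (avg fun f : α ↪ V d => avg fun w : Fin d → Coin d =>
      if ∃ e, meets a f w e c < m then (1 : ℝ) else 0) ≤
      avg fun f : α ↪ V d => avg fun w : Fin d → Coin d =>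
        2 ^ m * (if meets0 a f w c < m then (1 : ℝ) else 0) := by
      apply avg_mono
      intro f
      rw [avg_mul_left, avg, avg, sum_boole, sum_boole, ← mul_div_assoc]
      gcongr
      have := card_bad_le a m f c
      rw [mul_comm]
      exact_mod_cast this
    refine h3.trans ?_
    rw [avg_comm]
    have h4 : ∀ w : Fin d → Coin d, (avg fun f : α ↪ V d =>
        2 ^ m * (if meets0 a f w c < m then (1 : ℝ) else 0)) ≤ 2 ^ m * ((d.choose (d - m + 1)) *
        (((2 ^ d - Fintype.card α : ℕ) : ℝ) / (2 ^ d - 1 : ℕ)) ^ (d - m + 1)) := by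
      intro w
      rw [avg_mul_left]
      gcongr
      exact avg_meets0_le a m hm w c hN
    exact (avg_mono h4).trans (le_of_eq (avg_const _))
  refine (sum_le_sum h2).trans ?_
  rw [sum_const, card_univ, nsmul_eq_mul]

end bad

end Vale.Agent.P162.H768
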