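import Vale.Agent.P162.H768.Good
import Vale.Agent.P162.S2.Abs

/-!
# P162, stage 2, part B: the first matching
-/

open Finset Equiv
open scoped InnerProductSpace

namespace Vale.Agent.P162.H768

open Vale.Agent.P162.S2 Vale.Agent.P162.S2.Abs

variable {d : ℕ} {α : Type*}

/-! ### The group of hidden permutations of one step -/

theorem hstep_mul (i : Fin d) (f : α ↪ V d) (c c' : Coin d) :
    hstep i f c * hstep i f c' = hstep i f fun y => xor (c y) (c' y) := by
  ext1 x
  rw [Perm.mul_apply, hstep_apply, hstep_apply, hstep_apply]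
  cases h1 : c (rep i (f x)) <;> cases h2 : c' (rep i (f x)) <;>
    simp [h1, rep_partner, partner_partner]

theorem hstep_zero (i : Fin d) (f : α ↪ V d) : hstep i f (fun _ => false) = 1 := by
  ext1 x
  simp [hstep_apply]

theorem hstep_inv (i : Fin d) (f : α ↪ V d) (c : Coin d) : (hstep i f c)⁻¹ = hstep i f c := by
  rw [inv_eq_iff_mul_eq_one, hstep_mul]
  simp [hstep_zero]

theorem partner_spec {i : Fin d} {f : α ↪ V d} {a : α} (h : nb i (f a) ∈ Set.range f) :
    f (partner i f a) = nb i (f a) := by
  obtain ⟨b, hb⟩ := h
  rw [partner_of hb, hb]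

theorem partner_ne {i : Fin d} {f : α ↪ V d} {a : α} (h : nb i (f a) ∈ Set.range f) :
    partner i f a ≠ a := by
  intro h1
  have h2 := partner_spec h
  rw [h1] at h2
  exact nb_ne _ _ h2.symm

theorem hstep_delta [DecidableEq α] {i : Fin d} {f : α ↪ V d} {a : α}
    (h : nb i (f a) ∈ Set.range f) :
    hstep i f (fun y => decide (y = rep i (f a))) = swap a (partner i f a) := by
  ext1 x
  rw [hstep_apply]
  by_cases h1 : rep i (f x) = rep i (f a)
  · simp only [h1, decide_true, if_true]
    rcases (rep_eq_iff i (f a) (f x)).1 h1.symm with h2 | h2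
    · rw [f.injective h2, swap_apply_left]
    · have h3 : x = partner i f a := f.injective (h2.trans (partner_spec h).symm)
      rw [h3, partner_partner, swap_apply_right]
  · simp only [h1, decide_false, Bool.false_eq_true, if_false]
    rw [swap_apply_of_ne_of_ne]
    · rintro rfl; exact h1 rfl
    · rintro rfl; exact h1 (rep_partner i f a)

/-! ### Vector averages -/

section vavg
variable {E F : Type*} [Fintype E] [Fintype F]
variable {W : Type*} [NormedAddCommGroup W] [InnerProductSpace ℝ W]

/-- Average of a vector valued function. -/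
noncomputable def vavg (v : E → W) : W := (Fintype.card E : ℝ)⁻¹ • ∑ e, v e

theorem inner_vavg_vavg (v : E → W) (u : F → W) :
    ⟪vavg v, vavg u⟫_ℝ = avg fun e => avg fun e' => ⟪v e, u e'⟫_ℝ := by
  rw [vavg, vavg, real_inner_smul_left, real_inner_smul_right, sum_inner]
  simp only [inner_sum, avg, ← sum_div]
  rw [div_div, div_eq_mul_inv, mul_inv]
  ring

theorem inner_vavg_left (v : E → W) (u : W) : ⟪vavg v, u⟫_ℝ = avg fun e => ⟪v e, u⟫_ℝ := by
  rw [vavg, real_inner_smul_left, sum_inner, avg, div_eq_inv_mul]

theorem vavg_const [Nonempty E] (v : W) : vavg (fun _ : E => v) = v := by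
  have : (Fintype.card E : ℝ) ≠ 0 := by exact_mod_cast Fintype.card_ne_zero
  rw [vavg, sum_const, card_univ, ← Nat.cast_smul_eq_nsmul ℝ, smul_smul, inv_mul_cancel₀ this,
    one_smul]

theorem vavg_equiv (σ : E ≃ F) (v : F → W) : vavg (fun e => v (σ e)) = vavg v := by
  rw [vavg, vavg, Equiv.sum_comp σ v, Fintype.card_congr σ]

theorem vavg_comm (v : E → F → W) :
    vavg (fun e => vavg fun e' => v e e') = vavg fun e' => vavg fun e => v e e' := by
  simp only [vavg, ← smul_sum]
  rw [smul_comm, sum_comm]

theorem vavg_map {W' : Type*} [NormedAddCommGroup W'] [InnerProductSpace ℝ W']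
    (A : W →ₗ[ℝ] W') (v : E → W) : A (vavg v) = vavg fun e => A (v e) := by
  rw [vavg, vavg, map_smul, map_sum]

theorem vavg_add (v u : E → W) : vavg (fun e => v e + u e) = vavg v + vavg u := by
  rw [vavg, vavg, vavg, sum_add_distrib, smul_add]

theorem vavg_smul (c : ℝ) (v : E → W) : vavg (fun e => c • v e) = c • vavg v := by
  rw [vavg, vavg, ← smul_sum, smul_comm]

theorem norm_vavg_le {C : ℝ} [Nonempty E] (v : E → W) (h : ∀ e, ‖v e‖ ≤ C) : ‖vavg v‖ ≤ C := by
  have hc : (0 : ℝ) < Fintype.card E := by exact_mod_cast Fintype.card_pos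
  rw [vavg, norm_smul, norm_inv, Real.norm_natCast, inv_mul_le_iff₀ hc]
  refine (norm_sum_le _ _).trans ?_
  refine (sum_le_sum fun e _ => h e).trans ?_
  rw [sum_const, card_univ, nsmul_eq_mul]

end vavg

/-! ### Left translations -/

section lt
variable {α : Type*} [Fintype α] [DecidableEq α]

theorem lt_mul (g h : Perm α) (φ : FS α) : lt (g * h) φ = lt g (lt h φ) := by
  ext x
  simp [mul_assoc]

theorem lt_one (φ : FS α) : lt (1 : Perm α) φ = φ := by
  ext x
  simp

theorem inner_lt (g : Perm α) (φ ψ : FS α) : ⟪lt g φ, lt g ψ⟫_ℝ = ⟪φ, ψ⟫_ℝ := by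
  simp only [PiLp.inner_apply, lt_apply]
  exact Equiv.sum_comp (Equiv.mulLeft g⁻¹) fun x => ⟪φ x, ψ x⟫_ℝ

theorem norm_lt (g : Perm α) (φ : FS α) : ‖lt g φ‖ = ‖φ‖ := by
  have h := inner_lt g φ φ
  rw [real_inner_self_eq_norm_sq, real_inner_self_eq_norm_sq] at h
  exact (pow_left_inj₀ (norm_nonneg _) (norm_nonneg _) two_ne_zero).1 h

theorem inner_lt_inv_mul (g h : Perm α) (φ ψ : FS α) :
    ⟪lt (g⁻¹ * h) φ, ψ⟫_ℝ = ⟪lt h φ, lt g ψ⟫_ℝ := by
  rw [← inner_lt g (lt (g⁻¹ * h) φ) ψ, ← lt_mul]
  simp

end lt

/-! ### The average over one step as a product of pair averages -/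

section PM
variable {α : Type*} [Fintype α] [DecidableEq α]

/-- Average of the hidden permutations of one step. -/
noncomputable def A (i : Fin d) (f : α ↪ V d) (φ : FS α) : FS α :=
  vavg fun c : Coin d => lt (hstep i f c) φ

/-- Flip one coin. -/
def flipc (y : V d) : Coin d ≃ Coin d :=
  Function.Involutive.toPerm (fun c z => xor (c z) (decide (z = y))) (by
    intro c
    funext z
    simp)

theorem flipc_apply (y : V d) (c : Coin d) (z : V d) :
    flipc y c z = xor (c z) (decide (z = y)) := rfl

open Classical in
/-- The coins restricted to a set of switches. -/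
noncomputable def resc (U : Set (V d)) (c : Coin d) : Coin d := fun y => c y && decide (y ∈ U)

theorem resc_mem {U : Set (V d)} {c : Coin d} {y : V d} (h : y ∈ U) : resc U c y = c y := by
  simp [resc, h]

theorem resc_notMem {U : Set (V d)} {c : Coin d} {y : V d} (h : y ∉ U) :
    resc U c y = false := by
  simp [resc, h]

/-- The pairs of lines of the first step, as a list of left ends. -/
noncomputable def pairs (i : Fin d) (f : α ↪ V d) : Finset α :=
  open Classical in univ.filter fun a => f a i = false ∧ nb i (f a) ∈ Set.range f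

theorem PM_list (i : Fin d) (f : α ↪ V d) (l : List α) (hl : l.Nodup)
    (h : ∀ a ∈ l, f a i = false ∧ nb i (f a) ∈ Set.range f) (φ : FS α) :
    PM (l.map fun a => (a, partner i f a)) φ =
      vavg fun c : Coin d => lt (hstep i f (resc {y | ∃ a ∈ l, y = f a} c)) φ := by
  induction l with
  | nil =>
    have h1 : ∀ c : Coin d, resc {y : V d | ∃ a ∈ ([] : List α), y = f a} c = fun _ => false := by
      intro c
      funext y
      simp [resc]
    simp only [h1, hstep_zero, lt_one, vavg_const]
    rfl
  | cons a l ih =>
    have ih' := ih (List.nodup_cons.1 hl).2 fun b hb => h b (List.mem_cons_of_mem _ hb)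
    have ha := h a List.mem_cons_self
    have hal := (List.nodup_cons.1 hl).1
    have h0 : rep i (f a) = f a := by
      funext j
      by_cases hj : j = i
      · subst hj; simp [rep, ha.1]
      · simp [rep, hj]
    have h1 : PM ((a :: l).map fun a => (a, partner i f a)) φ =
        (1 / 2 : ℝ) • (PM (l.map fun a => (a, partner i f a)) φ +
          lt (swap a (partner i f a)) (PM (l.map fun a => (a, partner i f a)) φ)) := by
      simp [PM]
    rw [h1, ih', vavg_map, ← hstep_delta ha.2, h0, ← vavg_add, ← vavg_smul]
    -- right side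
    set U : Set (V d) := {y | ∃ b ∈ l, y = f b} with hU
    set U' : Set (V d) := {y | ∃ b ∈ a :: l, y = f b} with hU'
    have haU : f a ∉ U := by
      rintro ⟨b, hb, hfb⟩
      rw [f.injective hfb] at hal
      exact hal hb
    have h2 : vavg (fun c : Coin d => lt (hstep i f (resc U' c)) φ) =
        vavg (fun c : Coin d => lt (hstep i f (resc U' (flipc (f a) c))) φ) :=
      (vavg_equiv (flipc (f a)) fun c : Coin d => lt (hstep i f (resc U' c)) φ).symm
    have h3 : vavg (fun c : Coin d => lt (hstep i f (resc U' c)) φ) =
        vavg (fun c : Coin d => (1 / 2 : ℝ) • (lt (hstep i f (resc U' c)) φ +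
          lt (hstep i f (resc U' (flipc (f a) c))) φ)) := by
      rw [vavg_smul, vavg_add, ← h2]
      rw [← two_smul ℝ, smul_smul]
      norm_num
    rw [h3]
    congr 1
    funext c
    congr 1
    have key : ∀ z, z ≠ f a → (z ∈ U' ↔ z ∈ U) := by
      intro z hz
      simp only [hU, hU', Set.mem_ofPred_eq, List.mem_cons, exists_eq_or_imp, hz, false_or]
    have hmem : f a ∈ U' := ⟨a, List.mem_cons_self, rfl⟩
    have e1 : ∀ c : Coin d, c (f a) = false → resc U' c = resc U c := by
      intro c hc
      funext z
      by_cases hz : z = f a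
      · subst hz; rw [resc_mem hmem, resc_notMem haU, hc]
      · by_cases hzU : z ∈ U
        · rw [resc_mem hzU, resc_mem ((key z hz).2 hzU)]
        · rw [resc_notMem hzU, resc_notMem fun h => hzU ((key z hz).1 h)]
    have e2 : ∀ c : Coin d, c (f a) = true →
        resc U' c = fun z => xor (decide (z = f a)) (resc U c z) := by
      intro c hc
      funext z
      by_cases hz : z = f a
      · subst hz; rw [resc_mem hmem, resc_notMem haU, hc]; simp
      · by_cases hzU : z ∈ U
        · rw [resc_mem hzU, resc_mem ((key z hz).2 hzU)]; simp [hz]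
        · rw [resc_notMem hzU, resc_notMem fun h => hzU ((key z hz).1 h)]; simp [hz]
    have e3 : ∀ c : Coin d, resc U (flipc (f a) c) = resc U c := by
      intro c
      funext z
      by_cases hzU : z ∈ U
      · have hz : z ≠ f a := by rintro rfl; exact haU hzU
        rw [resc_mem hzU, resc_mem hzU, flipc_apply]; simp [hz]
      · rw [resc_notMem hzU, resc_notMem hzU]
    cases hc : c (f a)
    · rw [e1 c hc, e2 (flipc (f a) c) (by simp [flipc_apply, hc]), e3, ← lt_mul, hstep_mul]
    · rw [e2 c hc, e1 (flipc (f a) c) (by simp [flipc_apply, hc]), e3, ← lt_mul, hstep_mul,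
        add_comm]

theorem PM_pairs (i : Fin d) (f : α ↪ V d) (φ : FS α) :
    PM ((pairs i f).toList.map fun a => (a, partner i f a)) φ = A i f φ := by
  rw [PM_list i f _ (nodup_toList _)
    (fun a ha => by simpa [pairs] using ha), A]
  congr 1
  funext c
  congr 2
  ext1 x
  rw [hstep_apply, hstep_apply]
  by_cases h : nb i (f x) ∈ Set.range f
  · have h1 : rep i (f x) ∈ {y | ∃ a ∈ (pairs i f).toList, y = f a} := by
      by_cases hx : f x i = false
      · refine ⟨x, by simp only [mem_toList, pairs, mem_filter, mem_univ, true_and]; exact ⟨hx, h⟩,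
          ?_⟩
        funext j
        by_cases hj : j = i
        · subst hj; simp [rep, hx]
        · simp [rep, hj]
      · have hx' : f x i = true := by simpa using hx
        refine ⟨partner i f x, ?_, ?_⟩
        · simp only [mem_toList, pairs, mem_filter, mem_univ, true_and]
          rw [partner_spec h, nb_nb]
          refine ⟨?_, ⟨x, rfl⟩⟩
          simp [nb, hx']
        · rw [partner_spec h]
          funext j
          by_cases hj : j = i
          · subst hj; simp [rep, nb, hx']
          · simp [rep, nb, hj]
    rw [resc_mem h1]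
  · have h2 : partner i f x = x := partner_of_not (by
      rintro ⟨b, hb⟩
      exact h ⟨b, hb⟩)
    rw [h2]
    simp

theorem A_A (i : Fin d) (f : α ↪ V d) (c : Coin d) (φ : FS α) :
    lt (hstep i f c) (A i f φ) = A i f φ := by
  rw [A, vavg_map]
  have h1 : ∀ c', lt (hstep i f c) (lt (hstep i f c') φ) =
      lt (hstep i f (fun y => xor (c y) (c' y))) φ := by
    intro c'
    rw [← lt_mul, hstep_mul]
  simp only [h1]
  have e : Coin d ≃ Coin d := Function.Involutive.toPerm (fun c' : Coin d => fun y => xor (c y) (c' y)) (by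
    intro c'
    funext y
    simp)
  exact vavg_equiv (Function.Involutive.toPerm (fun c' : Coin d => fun y => xor (c y) (c' y)) (by
    intro c'
    funext y
    simp)) fun c' => lt (hstep i f c') φ

theorem inner_A (i : Fin d) (f : α ↪ V d) (φ : FS α) : ⟪A i f φ, φ⟫_ℝ = ‖A i f φ‖ ^ 2 := by
  have h1 : ⟪A i f φ, A i f φ⟫_ℝ = ⟪A i f φ, φ⟫_ℝ := by
    have h2 : ⟪A i f φ, A i f φ⟫_ℝ = avg fun c : Coin d => ⟪lt (hstep i f c) φ, A i f φ⟫_ℝ := by
      conv_lhs => rw [A]
      exact inner_vavg_left _ _
    have h3 : ∀ c : Coin d, ⟪lt (hstep i f c) φ, A i f φ⟫_ℝ = ⟪A i f φ, φ⟫_ℝ := by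
      intro c
      rw [← A_A i f c φ, inner_lt, real_inner_comm]
      rw [A_A]
    rw [h2]
    simp only [h3]
    exact avg_const _
  rw [← h1, real_inner_self_eq_norm_sq]

theorem card_pairs (i : Fin d) (f : α ↪ V d) :
    2 * Fintype.card α ≤ 2 ^ d + 2 * (pairs i f).card := by
  classical
  have h1 : Fintype.card α = (univ.filter fun a => nb i (f a) ∈ Set.range f).card +
      (univ.filter fun a => ¬ nb i (f a) ∈ Set.range f).card := by
    rw [Finset.card_filter_add_card_filter_not, card_univ]
  have h2 : (univ.filter fun a => ¬ nb i (f a) ∈ Set.range f).card + Fintype.card α ≤ 2 ^ d := by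
    have h3 : (univ.filter fun a => ¬ nb i (f a) ∈ Set.range f).card ≤
        (univ.filter fun y : V d => ¬ y ∈ Set.range f).card := by
      apply Finset.card_le_card_of_injOn (fun a => nb i (f a))
      · intro a ha
        simpa using ha
      · intro a _ b _ hab
        have : nb i (nb i (f a)) = nb i (nb i (f b)) := congrArg (nb i) hab
        rw [nb_nb, nb_nb] at this
        exact f.injective this
    have h4 : (univ.filter fun y : V d => y ∈ Set.range f).card = Fintype.card α := by
      have : (univ.filter fun y : V d => y ∈ Set.range f) = univ.map f := by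
        ext y
        simp
      rw [this, card_map, card_univ]
    have h5 := Finset.card_filter_add_card_filter_not (s := (univ : Finset (V d)))
      (fun y : V d => y ∈ Set.range f)
    rw [h4, card_univ] at h5
    have h6 : Fintype.card (V d) = 2 ^ d := by simp
    omega
  have h3 : (univ.filter fun a => nb i (f a) ∈ Set.range f).card ≤ 2 * (pairs i f).card := by
    have h4 : (univ.filter fun a => nb i (f a) ∈ Set.range f) ⊆
        pairs i f ∪ (pairs i f).image (partner i f) := by
      intro a ha
      have ha' := (mem_filter.1 ha).2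
      rw [mem_union, mem_image]
      by_cases hx : f a i = false
      · left
        rw [pairs, mem_filter]
        exact ⟨mem_univ _, hx, ha'⟩
      · right
        have hx' : f a i = true := by simpa using hx
        refine ⟨partner i f a, ?_, partner_partner i f a⟩
        rw [pairs, mem_filter, partner_spec ha', nb_nb]
        exact ⟨mem_univ _, by simp [nb, hx'], ⟨a, rfl⟩⟩
    refine (card_le_card h4).trans ((card_union_le _ _).trans ?_)
    have := card_image_le (s := pairs i f) (f := partner i f)
    omega
  omega

omit [DecidableEq α] in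
theorem isMatching_pairs (i : Fin d) (f : α ↪ V d) :
    IsMatching ((pairs i f).toList.map fun a => (a, partner i f a)) := by
  classical
  rw [IsMatching, List.flatMap_map]
  rw [List.nodup_flatMap]
  constructor
  · intro a ha
    have h1 : a ∈ pairs i f := by simpa using ha
    have h2 := (mem_filter.1 h1).2.2
    simp only [List.nodup_cons, List.mem_singleton, List.not_mem_nil, not_false_eq_true,
      List.nodup_nil, and_self, and_true]
    exact (partner_ne h2).symm
  · have h1 : (pairs i f).toList.Pairwise (· ≠ ·) := nodup_toList _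
    refine h1.imp_of_mem ?_
    intro a b ha hb hab
    have ha1 : a ∈ pairs i f := by simpa using ha
    have hb1 : b ∈ pairs i f := by simpa using hb
    have ha2 := (mem_filter.1 ha1).2
    have hb2 := (mem_filter.1 hb1).2
    have key : ∀ x y, x ∈ pairs i f → y ∈ pairs i f → x ≠ partner i f y := by
      intro x y hx hy hxy
      have hx2 := (mem_filter.1 hx).2
      have hy2 := (mem_filter.1 hy).2
      have h3 := hx2.1
      rw [hxy, partner_spec hy2.2] at h3
      simp [nb, hy2.1] at h3
    simp only [Function.onFun, List.disjoint_cons_left, List.mem_cons, List.not_mem_nil, or_false,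
      not_or, List.disjoint_nil_left, and_true]
    refine ⟨⟨hab, key a b ha1 hb1⟩, (key b a hb1 ha1).symm, ?_⟩
    intro h4
    have h5 := congrArg (partner i f) h4
    rw [partner_partner, partner_partner] at h5
    exact hab h5

end PM

end Vale.Agent.P162.H768
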