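import Vale.Agent.P162.S2.Defs

/-!
# P162, stage 2, part B: trajectories in one sweep
-/

open Finset Equiv

namespace Vale.Agent.P162.H768

open Vale.Agent.P162.S2

variable {d : ℕ} [NeZero d] {α : Type*}

/-- The permutation performed by the first `s` steps with the coins `r`. -/
def P (a : ℕ) (r : ℕ → Coin d) (s : ℕ) : Perm (V d) := pos a s fun i => r i

theorem P_zero (a : ℕ) (r : ℕ → Coin d) : P a r 0 = 1 := rfl

theorem P_succ (a : ℕ) (r : ℕ → Coin d) (s : ℕ) :
    P a r (s + 1) = sw (dir d (a + s)) (r s) * P a r s := rfl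

/-- The hidden permutation of the first `s` steps. -/
noncomputable def H (a : ℕ) (f : α ↪ V d) (r e : ℕ → Coin d) (s : ℕ) : Perm α :=
  hid a s f (fun i => r i) (fun i => e i)

theorem H_zero (a : ℕ) (f : α ↪ V d) (r e : ℕ → Coin d) : H a f r e 0 = 1 := rfl

theorem H_succ (a : ℕ) (f : α ↪ V d) (r e : ℕ → Coin d) (s : ℕ) :
    H a f r e (s + 1) = hstep (dir d (a + s)) (mv (P a r s) f) (e s) * H a f r e s := rfl

/-- The position at time `s` of the card that starts on the line `c`. -/
noncomputable def Y (a : ℕ) (f : α ↪ V d) (r e : ℕ → Coin d) (c : α) (s : ℕ) : V d :=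
  P a r s (f (H a f r e s c))

theorem Y_zero (a : ℕ) (f : α ↪ V d) (r e : ℕ → Coin d) (c : α) : Y a f r e c 0 = f c := rfl

/-- The positions occupied by the lines at time `s`. -/
def Red (a : ℕ) (f : α ↪ V d) (r : ℕ → Coin d) (s : ℕ) : Set (V d) :=
  Set.range fun b => P a r s (f b)

/-- At step `s` the card that starts on the line `c` meets a card on a line. -/
def Meet (a : ℕ) (f : α ↪ V d) (r e : ℕ → Coin d) (c : α) (s : ℕ) : Prop :=
  nb (dir d (a + s)) (Y a f r e c s) ∈ Red a f r s

theorem Y_mem_Red (a : ℕ) (f : α ↪ V d) (r e : ℕ → Coin d) (c : α) (s : ℕ) :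
    Y a f r e c s ∈ Red a f r s := ⟨_, rfl⟩

open Classical in
theorem Y_succ (a : ℕ) (f : α ↪ V d) (r e : ℕ → Coin d) (c : α) (s : ℕ) :
    Y a f r e c (s + 1) =
      if xor (r s (rep (dir d (a + s)) (Y a f r e c s)))
        (decide (Meet a f r e c s) && e s (rep (dir d (a + s)) (Y a f r e c s)))
      then nb (dir d (a + s)) (Y a f r e c s) else Y a f r e c s := by
  set i := dir d (a + s) with hi
  set x := Y a f r e c s with hx
  have h1 : Y a f r e c (s + 1) =
      sw i (r s) (P a r s (f (hstep i (mv (P a r s) f) (e s) (H a f r e s c)))) := rfl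
  have h2 : P a r s (f (hstep i (mv (P a r s) f) (e s) (H a f r e s c))) =
      if decide (Meet a f r e c s) && e s (rep i x) then nb i x else x := by
    rw [hstep_apply]
    have h3 : mv (P a r s) f (H a f r e s c) = x := rfl
    rw [h3]
    by_cases hm : Meet a f r e c s
    · obtain ⟨b, hb⟩ := hm
      have h4 : partner i (mv (P a r s) f) (H a f r e s c) = b := partner_of hb
      have hm' : Meet a f r e c s := ⟨b, hb⟩
      rw [h4]
      cases h5 : e s (rep i x)
      · simp only [Bool.false_eq_true, if_false, Bool.and_false]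
        rfl
      · simp only [if_true, Bool.and_true, decide_eq_true_eq, hm']
        exact hb
    · have h4 : partner i (mv (P a r s) f) (H a f r e s c) = H a f r e s c := by
        apply partner_of_not
        rintro ⟨b, hb⟩
        exact hm ⟨b, hb⟩
      rw [h4]
      simp only [ite_self, hm, decide_false, Bool.false_and, Bool.false_eq_true, if_false]
      rfl
  rw [h1, h2, sw_apply]
  by_cases h6 : (decide (Meet a f r e c s) && e s (rep i x)) = true
  · rw [if_pos h6, rep_nb, nb_nb, h6]
    cases r s (rep i x) <;> simp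
  · rw [if_neg h6]
    have h7 : (decide (Meet a f r e c s) && e s (rep i x)) = false := by simpa using h6
    rw [h7]
    cases r s (rep i x) <;> simp

theorem Y_succ_or (a : ℕ) (f : α ↪ V d) (r e : ℕ → Coin d) (c : α) (s : ℕ) :
    Y a f r e c (s + 1) = Y a f r e c s ∨
      Y a f r e c (s + 1) = nb (dir d (a + s)) (Y a f r e c s) := by
  rw [Y_succ]
  split
  · exact Or.inr rfl
  · exact Or.inl rfl

/-! ### The unique path property -/

theorem dir_ne {a s t : ℕ} (h1 : s < t) (h2 : t < s + d) : dir d (a + s) ≠ dir d (a + t) := by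
  intro h
  have h3 := congrArg Fin.val h
  simp only [dir_val] at h3
  have h4 : (a + s) ≡ (a + t) [MOD d] := h3
  have h5 : s ≡ t [MOD d] := Nat.ModEq.add_left_cancel' a h4
  have h6 := (Nat.modEq_iff_dvd' h1.le).1 h5
  have h7 := Nat.le_of_dvd (by omega) h6
  omega

/-- A position path. -/
def IsPath (a : ℕ) (x : ℕ → V d) : Prop :=
  ∀ s, x (s + 1) = x s ∨ x (s + 1) = nb (dir d (a + s)) (x s)

theorem IsPath.apply_of_ne {a : ℕ} {x : ℕ → V d} (h : IsPath a x) {s : ℕ} {i : Fin d}
    (hi : i ≠ dir d (a + s)) : x (s + 1) i = x s i := by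
  rcases h s with h1 | h1
  · rw [h1]
  · rw [h1]
    simp [nb, hi]

theorem IsPath.apply_const {a : ℕ} {x : ℕ → V d} (h : IsPath a x) {s : ℕ} {i : Fin d} (k : ℕ)
    (hi : ∀ t, s ≤ t → t < s + k → i ≠ dir d (a + t)) : x (s + k) i = x s i := by
  induction k with
  | zero => rfl
  | succ k ih =>
    rw [← add_assoc, h.apply_of_ne (hi (s + k) (by omega) (by omega)), ih]
    intro t ht1 ht2
    exact hi t ht1 (by omega)

theorem IsPath.unique {a : ℕ} {x y : ℕ → V d} (hx : IsPath a x) (hy : IsPath a y)
    (h0 : x 0 = y 0) {L : ℕ} (hL : L ≤ d) (h1 : x L = y L) : ∀ s, s ≤ L → x s = y s := by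
  intro s
  induction s with
  | zero => intro _; exact h0
  | succ s ih =>
    intro hs
    have h2 := ih (by omega)
    funext i
    by_cases hi : i = dir d (a + s)
    · subst hi
      obtain ⟨k, rfl⟩ : ∃ k, L = s + 1 + k := ⟨L - (s + 1), by omega⟩
      rw [← hx.apply_const k, ← hy.apply_const k, h1]
      · intro t ht1 ht2
        exact dir_ne (by omega) (by omega)
      · intro t ht1 ht2
        exact dir_ne (by omega) (by omega)
    · rw [hx.apply_of_ne hi, hy.apply_of_ne hi, h2]

theorem isPath_Y (a : ℕ) (f : α ↪ V d) (r e : ℕ → Coin d) (c : α) : IsPath a (Y a f r e c) :=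
  Y_succ_or a f r e c

theorem isPath_P (a : ℕ) (r : ℕ → Coin d) (x : V d) : IsPath a fun s => P a r s x := by
  intro s
  simp only [P_succ, Perm.mul_apply, sw_apply]
  split
  · exact Or.inr rfl
  · exact Or.inl rfl

/-- If the hidden permutations agree at `c`, then the hidden coins agree at all meetings of `c`. -/
theorem coin_eq_of_H_eq {a : ℕ} {f : α ↪ V d} {r e e' : ℕ → Coin d} {c : α} {L : ℕ} (hL : L ≤ d)
    (h : H a f r e L c = H a f r e' L c) {s : ℕ} (hs : s < L) (hm : Meet a f r e c s) :
    e s (rep (dir d (a + s)) (Y a f r e c s)) = e' s (rep (dir d (a + s)) (Y a f r e c s)) := by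
  have h1 : ∀ s, s ≤ L → Y a f r e c s = Y a f r e' c s := by
    apply (isPath_Y a f r e c).unique (isPath_Y a f r e' c) rfl hL
    rw [Y, Y, h]
  have h2 := h1 s hs.le
  have h3 := h1 (s + 1) hs
  have hm' : Meet a f r e' c s := by
    rw [Meet, ← h2]; exact hm
  rw [Y_succ, Y_succ, ← h2] at h3
  have hne := nb_ne (dir d (a + s)) (Y a f r e c s)
  simp only [hm, hm', decide_true, Bool.true_and] at h3
  cases h4 : r s (rep (dir d (a + s)) (Y a f r e c s)) <;>
    cases h5 : e s (rep (dir d (a + s)) (Y a f r e c s)) <;>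
    cases h6 : e' s (rep (dir d (a + s)) (Y a f r e c s)) <;>
    simp [h4, h5, h6, hne, hne.symm] at h3 ⊢

/-- The position map at time `s` is injective in the card. -/
theorem Y_injective (a : ℕ) (f : α ↪ V d) (r e : ℕ → Coin d) (s : ℕ) :
    Function.Injective fun c => Y a f r e c s := by
  intro c c' h
  exact (H a f r e s).injective (f.injective ((P a r s).injective h))

/-! ### The partners in one sweep are distinct -/

/-- The starting position of the partner at step `s` of the item that starts at `x`. -/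
def par (a : ℕ) (r : ℕ → Coin d) (x : V d) (s : ℕ) : V d :=
  (P a r s)⁻¹ (nb (dir d (a + s)) (P a r s x))

theorem P_par (a : ℕ) (r : ℕ → Coin d) (x : V d) (s : ℕ) :
    P a r s (par a r x s) = nb (dir d (a + s)) (P a r s x) := by
  simp [par]

theorem par_ne (a : ℕ) (r : ℕ → Coin d) (x : V d) (s : ℕ) : par a r x s ≠ x := by
  intro h
  have := P_par a r x s
  rw [h] at this
  exact nb_ne _ _ this.symm

theorem P_succ_par (a : ℕ) (r : ℕ → Coin d) (x : V d) (s : ℕ) :
    P a r (s + 1) (par a r x s) = nb (dir d (a + s)) (P a r (s + 1) x) := by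
  rw [P_succ, Perm.mul_apply, Perm.mul_apply, P_par, sw_apply, sw_apply, rep_nb, nb_nb]
  split <;> simp [nb_nb]

theorem par_injOn (a : ℕ) (r : ℕ → Coin d) (x : V d) : Set.InjOn (par a r x) (Set.Iio d) := by
  have key : ∀ s t, s < t → t < d → par a r x s ≠ par a r x t := by
    intro s t hst htd h
    have h1 := P_succ_par a r x s
    have h2 := P_par a r x t
    rw [← h] at h2
    obtain ⟨k, rfl⟩ : ∃ k, t = s + 1 + k := ⟨t - (s + 1), by omega⟩
    have hp := (isPath_P a r (par a r x s)).apply_const (s := s + 1) (i := dir d (a + s)) k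
      (fun t ht1 ht2 => dir_ne (by omega) (by omega))
    have hx := (isPath_P a r x).apply_const (s := s + 1) (i := dir d (a + s)) k
      (fun t ht1 ht2 => dir_ne (by omega) (by omega))
    rw [h1, h2] at hp
    have hd : dir d (a + s) ≠ dir d (a + (s + 1 + k)) := dir_ne (by omega) (by omega)
    have h3 : nb (dir d (a + (s + 1 + k))) (P a r (s + 1 + k) x) (dir d (a + s)) =
        P a r (s + 1 + k) x (dir d (a + s)) := by
      rw [nb, Function.update_of_ne hd]
    have h4 : nb (dir d (a + s)) (P a r (s + 1) x) (dir d (a + s)) =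
        !(P a r (s + 1) x (dir d (a + s))) := by
      simp [nb]
    rw [h3, h4, hx] at hp
    cases h5 : P a r (s + 1) x (dir d (a + s)) <;> simp [h5] at hp
  intro s hs t ht h
  rcases lt_trichotomy s t with h1 | h1 | h1
  · exact absurd h (key s t h1 ht)
  · exact h1
  · exact absurd h.symm (key t s h1 hs)

end Vale.Agent.P162.H768
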